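import Vale.Agent.P097.H394.Zone

/-!
# P097 / case [c] / row A5.T-BASE: first exit from the zone and choice of the base

`S 0` joins the mid level window `z₀` to the vertical over a generic point, `S (i+1)` is the next
piece of the vertical; `e i` bounds the oscillation of the line on `S i`.
-/

set_option linter.all false

open Complex Metric Filter Topology Set
open scoped ComplexConjugate

namespace Vale.Agent.P097.H394

open Vale.Agent.P097.TC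

/-- a chain of preconnected pieces -/
theorem preconn_chain {X : Type*} [TopologicalSpace X] {S : ℕ → Set X}
    (hS : ∀ i, IsPreconnected (S i)) (hc : ∀ i, (S i ∩ S (i + 1)).Nonempty) (n : ℕ) :
    IsPreconnected (⋃ i ∈ Iic n, S i) := by
  induction n with
  | zero =>
    have : (⋃ i ∈ Iic 0, S i) = S 0 := by
      ext x
      simp
    rw [this]; exact hS 0
  | succ n ih =>
    have e1 : (⋃ i ∈ Iic (n + 1), S i) = (⋃ i ∈ Iic n, S i) ∪ S (n + 1) := by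
      ext x
      simp only [mem_iUnion, mem_Iic, mem_union, exists_prop]
      constructor
      · rintro ⟨i, hi, hx⟩
        rcases Nat.le_succ_iff.1 hi with h | h
        · exact Or.inl ⟨i, h, hx⟩
        · subst h; exact Or.inr hx
      · rintro (⟨i, hi, hx⟩ | hx)
        · exact ⟨i, by omega, hx⟩
        · exact ⟨n + 1, le_rfl, hx⟩
    rw [e1]
    obtain ⟨x, h1, h2⟩ := hc n
    exact IsPreconnected.union x (by
      simp only [mem_iUnion, mem_Iic, exists_prop]; exact ⟨n, le_rfl, h1⟩) h2 ih (hS _)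

variable {Λ b : ℝ} {F q : ℂ → ℂ}

/-- **first exit**: the zone `{|L - L z₀| < ρ₀}` is left, and before the exit the position is
`η`-close to its initial value -/
theorem first_exit (hC : Cv Λ b F q) {K : Set ℂ} (hK : IsCompact K) (hKb : K ⊆ Sb b) (R : ℝ)
    {η : ℝ} (hη : 0 < η) (hKη : cthickening η K ⊆ Sb b) :
    ∃ ρ₀ > 0, ∀ {X : Type*} [TopologicalSpace X] {S : ℕ → Set X} {a p x : X → ℂ} {z₀ : X}
      {e : ℕ → ℝ}, (∀ i, IsPreconnected (S i)) → (∀ i, (S i ∩ S (i + 1)).Nonempty) → z₀ ∈ S 0 →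
      ContinuousOn x (⋃ i, S i) → x z₀ ∈ K → |(a z₀).im| ≤ R →
      (∀ i, ∀ z ∈ S i, x z ∈ Sb b ∧ Mi F q (a z) (p z) (x z) = 0) →
      (∀ i, ∀ z ∈ S i, ∀ w ∈ S i, ‖a z - a w‖ ≤ e i ∧ ‖p z - p w‖ ≤ e i) →
      (∃ i, ∃ z ∈ S i, x z ∉ cthickening η K) →
      ∃ n, ρ₀ ≤ ∑ i ∈ Finset.range (n + 1), e i ∧ ∀ i < n, ∀ z ∈ S i,
        ‖a z - a z₀‖ < ρ₀ ∧ ‖p z - p z₀‖ < ρ₀ ∧ ‖x z - x z₀‖ < η ∧ x z ∈ cthickening η K ∧
          ‖a z - a z₀‖ ≤ ∑ i' ∈ Finset.range (i + 1), e i' := by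
  obtain ⟨ρ₀, hρ₀, hz⟩ := zone hC hK hKb R hη
  refine ⟨ρ₀, hρ₀, ?_⟩
  intro X _ S a p x z₀ e hS hc hz₀ hxc hxK haR hM hosc hex
  have he0 : ∀ i, 0 ≤ e i := by
    intro i
    obtain ⟨w, hw, -⟩ := hc i
    exact (norm_nonneg _).trans (hosc i w hw w hw).1
  -- telescoping
  have htel : ∀ i, ∀ z ∈ S i, ‖a z - a z₀‖ ≤ ∑ i' ∈ Finset.range (i + 1), e i' ∧
      ‖p z - p z₀‖ ≤ ∑ i' ∈ Finset.range (i + 1), e i' := by
    intro i
    induction i with
    | zero =>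
      intro z hz'
      simpa using hosc 0 z hz' z₀ hz₀
    | succ i ih =>
      intro z hz'
      obtain ⟨w, hw1, hw2⟩ := hc i
      have h1 := hosc (i + 1) z hz' w hw2
      have h2 := ih w hw1
      rw [Finset.sum_range_succ]
      constructor
      · calc ‖a z - a z₀‖ = ‖(a z - a w) + (a w - a z₀)‖ := by ring_nf
          _ ≤ ‖a z - a w‖ + ‖a w - a z₀‖ := norm_add_le _ _
          _ ≤ _ := by linarith [h1.1, h2.1]
      · calc ‖p z - p z₀‖ = ‖(p z - p w) + (p w - p z₀)‖ := by ring_nf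
          _ ≤ ‖p z - p w‖ + ‖p w - p z₀‖ := norm_add_le _ _
          _ ≤ _ := by linarith [h1.2, h2.2]
  -- position stays close as long as the sum is small
  have hstay : ∀ n, ∑ i ∈ Finset.range (n + 1), e i < ρ₀ → ∀ i ≤ n, ∀ z ∈ S i,
      ‖a z - a z₀‖ < ρ₀ ∧ ‖p z - p z₀‖ < ρ₀ ∧ ‖x z - x z₀‖ < η ∧ x z ∈ cthickening η K := by
    intro n hn
    have hmono : ∀ i ≤ n, ∑ i' ∈ Finset.range (i + 1), e i' < ρ₀ := by
      intro i hi
      refine lt_of_le_of_lt ?_ hn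
      exact Finset.sum_le_sum_of_subset_of_nonneg
        (Finset.range_mono (by omega)) fun j _ _ => he0 j
    have hT := preconn_chain hS hc n
    have hsub : (⋃ i ∈ Iic n, S i) ⊆ ⋃ i, S i :=
      iUnion_mono fun i => iUnion_subset fun _ => Subset.rfl
    have hall : ∀ z ∈ (⋃ i ∈ Iic n, S i), ‖a z - a z₀‖ < ρ₀ ∧ ‖p z - p z₀‖ < ρ₀ ∧ x z ∈ Sb b ∧
        Mi F q (a z) (p z) (x z) = 0 := by
      intro z hz'
      simp only [mem_iUnion, mem_Iic, exists_prop] at hz'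
      obtain ⟨i, hi, hzi⟩ := hz'
      have h1 := htel i z hzi
      exact ⟨h1.1.trans_lt (hmono i hi), h1.2.trans_lt (hmono i hi), (hM i z hzi).1,
        (hM i z hzi).2⟩
    have h0 : z₀ ∈ (⋃ i ∈ Iic n, S i) := by
      simp only [mem_iUnion, mem_Iic, exists_prop]
      exact ⟨0, Nat.zero_le _, hz₀⟩
    have hx := hz hT h0 (hxc.mono hsub) hxK haR hall
    intro i hi z hzi
    have hzm : z ∈ (⋃ i ∈ Iic n, S i) := by
      simp only [mem_iUnion, mem_Iic, exists_prop]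
      exact ⟨i, hi, hzi⟩
    have h1 := hall z hzm
    have h2 := hx z hzm
    refine ⟨h1.1, h1.2.1, h2, ?_⟩
    refine mem_cthickening_of_dist_le (x z) (x z₀) η K hxK ?_
    rw [dist_eq_norm]; exact h2.le
  obtain ⟨i₁, z₁, hz₁, hx₁⟩ := hex
  have hP : ∃ n, ρ₀ ≤ ∑ i ∈ Finset.range (n + 1), e i := by
    by_contra hcon
    push Not at hcon
    exact hx₁ ((hstay i₁ (hcon i₁) i₁ le_rfl z₁ hz₁).2.2.2)
  classical
  set n := Nat.find hP with hn
  refine ⟨n, Nat.find_spec hP, ?_⟩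
  intro i hi z hzi
  have h1 : ¬ ρ₀ ≤ ∑ i' ∈ Finset.range (i + 1), e i' := Nat.find_min hP hi
  obtain ⟨h2, h3, h4, h5⟩ := hstay i (not_le.1 h1) i le_rfl z hzi
  exact ⟨h2, h3, h4, h5, (htel i z hzi).1⟩

/-- **choice of the base** (8'): if moreover the oscillation on `S 0` is at most `ρ₀ / 4` and the
thresholds `t i` sum to less than `3 ρ₀ / 4`, some piece before or at the exit has `e i > t i`, and
all pieces before it are in the zone -/
theorem exists_base (hC : Cv Λ b F q) {K : Set ℂ} (hK : IsCompact K) (hKb : K ⊆ Sb b) (R : ℝ)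
    {η : ℝ} (hη : 0 < η) (hKη : cthickening η K ⊆ Sb b) :
    ∃ ρ₀ > 0, ∀ {X : Type*} [TopologicalSpace X] {S : ℕ → Set X} {a p x : X → ℂ} {z₀ : X}
      {e : ℕ → ℝ}, (∀ i, IsPreconnected (S i)) → (∀ i, (S i ∩ S (i + 1)).Nonempty) → z₀ ∈ S 0 →
      ContinuousOn x (⋃ i, S i) → x z₀ ∈ K → |(a z₀).im| ≤ R →
      (∀ i, ∀ z ∈ S i, x z ∈ Sb b ∧ Mi F q (a z) (p z) (x z) = 0) →
      (∀ i, ∀ z ∈ S i, ∀ w ∈ S i, ‖a z - a w‖ ≤ e i ∧ ‖p z - p w‖ ≤ e i) →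
      (∃ i, ∃ z ∈ S i, x z ∉ cthickening η K) →
      e 0 ≤ ρ₀ / 4 → ∀ {t : ℕ → ℝ}, (∀ i, 0 ≤ t i) →
      (∀ n, ∑ i ∈ Finset.range n, t (i + 1) < 3 * ρ₀ / 4) →
      ∃ n, t (n + 1) < e (n + 1) ∧ ∀ i ≤ n, ∀ z ∈ S i,
        ‖a z - a z₀‖ < ρ₀ ∧ ‖p z - p z₀‖ < ρ₀ ∧ ‖x z - x z₀‖ < η ∧ x z ∈ cthickening η K := by
  obtain ⟨ρ₀, hρ₀, hz⟩ := first_exit hC hK hKb R hη hKη
  refine ⟨ρ₀, hρ₀, ?_⟩
  intro X _ S a p x z₀ e hS hc hz₀ hxc hxK haR hM hosc hex he t ht hsum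
  obtain ⟨n, hn1, hn2⟩ := hz hS hc hz₀ hxc hxK haR hM hosc hex
  by_contra hcon
  push Not at hcon
  have hall : ∀ m < n, e (m + 1) ≤ t (m + 1) := by
    intro m hm
    by_contra hlt
    obtain ⟨i, hi, z, hzi, h⟩ := hcon m (not_le.1 hlt)
    obtain ⟨h1, h2, h3, h4, -⟩ := hn2 i (by omega) z hzi
    exact h h1 h2 h3 h4
  rw [Finset.sum_range_succ'] at hn1
  have h1 : ∑ i ∈ Finset.range n, e (i + 1) ≤ ∑ i ∈ Finset.range n, t (i + 1) :=
    Finset.sum_le_sum fun i hi => hall i (Finset.mem_range.1 hi)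
  have h2 := hsum n
  linarith

end Vale.Agent.P097.H394
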