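import Vale.Agent.P097.TC.Defs

/-!
# P097 / case [c] / row A5.ZONE: uniform root motion

`zone`: as long as a line `(a, p)` stays within `ρ₀` of its initial position, a root `x` of the
incidence function followed along a preconnected set moves by less than `η`. Uniform over all
initial lines with `|Im a| ≤ R` and a root in the compact `K ⊆ Sb b`; NO bound on `p`, R2 points
(`deriv F x = 0`) allowed.
-/

set_option linter.all false

open Complex Metric Filter Topology Set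
open scoped ComplexConjugate

namespace Vale.Agent.P097.H394

open Vale.Agent.P097.TC

/-- homogeneous incidence function: `mg (a, c₁, c₂) = c₁ * Mi a (c₂ / c₁)` -/
noncomputable def mg (F q : ℂ → ℂ) (k : ℂ × ℂ × ℂ) (x : ℂ) : ℂ :=
  deriv F x * (k.2.1 * (q x * Complex.cos (k.1 - F x)) - k.2.2) +
    k.2.1 * (deriv q x * Complex.sin (k.1 - F x))

theorem mg_one (F q : ℂ → ℂ) (a p x : ℂ) : mg F q (a, 1, p) x = Mi F q a p x := by
  simp only [mg, Mi]; ring

theorem mg_smul (F q : ℂ → ℂ) (a p c x : ℂ) :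
    mg F q (a, c, c * p) x = c * Mi F q a p x := by
  simp only [mg, Mi]; ring

theorem isOpen_Sb (b : ℝ) : IsOpen (Sb b) :=
  isOpen_lt (Complex.continuous_im.abs) continuous_const

variable {Λ b : ℝ} {F q : ℂ → ℂ}

theorem d1 {f : ℂ → ℂ} (h : DifferentiableOn ℂ f (Sb b)) {x : ℂ} (hx : x ∈ Sb b) :
    HasDerivAt f (deriv f x) x :=
  (h.differentiableAt ((isOpen_Sb b).mem_nhds hx)).hasDerivAt

theorem ddiff {f : ℂ → ℂ} (h : DifferentiableOn ℂ f (Sb b)) :
    DifferentiableOn ℂ (deriv f) (Sb b) := h.deriv (isOpen_Sb b)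

/-- the normal angle is not locally constant -/
theorem F_ne (hC : Cv Λ b F q) {x₀ : ℂ} (hx : x₀ ∈ Sb b) : ¬ ∀ᶠ x in 𝓝 x₀, deriv F x = 0 := by
  intro h
  have h0 : deriv F x₀ = 0 := h.self_of_nhds
  have h1 : deriv (deriv F) x₀ = 0 := by
    have : deriv F =ᶠ[𝓝 x₀] fun _ => (0 : ℂ) := h
    rw [this.deriv_eq]; simp
  have h2 := hC.wr x₀ hx
  rw [h0, h1] at h2
  have h3 : ((Λ : ℂ)) ^ 3 ≠ 0 := pow_ne_zero _ (by exact_mod_cast hC.Λ0.ne')
  apply h3
  rw [← h2]; ring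

theorem diff_mg (hC : Cv Λ b F q) (k : ℂ × ℂ × ℂ) : DifferentiableOn ℂ (mg F q k) (Sb b) := by
  have h1 := hC.dF
  have h2 := hC.dq
  have h3 := ddiff hC.dF
  have h4 := ddiff hC.dq
  have h5 : DifferentiableOn ℂ (fun x => k.1 - F x) (Sb b) := (differentiableOn_const _).sub h1
  have h6 : DifferentiableOn ℂ (fun x => Complex.cos (k.1 - F x)) (Sb b) := h5.ccos
  have h7 : DifferentiableOn ℂ (fun x => Complex.sin (k.1 - F x)) (Sb b) := h5.csin
  exact (h3.mul (((h2.mul h6).const_mul k.2.1).sub_const _)).add ((h4.mul h7).const_mul _)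

/-- `F' M_x = F'' M + Λ³ sin (a - F)` -/
theorem hasDeriv_Mi (hC : Cv Λ b F q) (a p : ℂ) {x : ℂ} (hx : x ∈ Sb b) :
    HasDerivAt (Mi F q a p)
      (deriv (deriv F) x * (q x * Complex.cos (a - F x) - p) +
        deriv F x ^ 2 * q x * Complex.sin (a - F x) + deriv (deriv q) x * Complex.sin (a - F x))
      x := by
  have h1 := d1 hC.dF hx
  have h2 := d1 hC.dq hx
  have h3 := d1 (ddiff hC.dF) hx
  have h4 := d1 (ddiff hC.dq) hx
  have h5 : HasDerivAt (fun x => a - F x) (-deriv F x) x := h1.const_sub a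
  have h6 := h5.ccos
  have h7 := h5.csin
  have h8 := (h3.mul ((h2.mul h6).sub_const p)).add (h4.mul h7)
  refine (h8.congr_deriv ?_)
  simp only [Pi.mul_apply]
  ring

theorem mg_ne (hC : Cv Λ b F q) {k : ℂ × ℂ × ℂ} (hk : k.2.1 ≠ 0 ∨ k.2.2 ≠ 0) {x₀ : ℂ}
    (hx : x₀ ∈ Sb b) : ¬ ∀ᶠ x in 𝓝 x₀, mg F q k x = 0 := by
  intro h
  have hev : ∀ᶠ x in 𝓝 x₀, x ∈ Sb b := (isOpen_Sb b).mem_nhds hx
  by_cases hc : k.2.1 = 0
  · have hc2 : k.2.2 ≠ 0 := by
      rcases hk with h' | h'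
      · exact absurd hc h'
      · exact h'
    refine F_ne hC hx (h.mono fun x hx' => ?_)
    simp only [mg, hc, zero_mul, zero_sub, add_zero, mul_neg, neg_eq_zero, mul_eq_zero] at hx'
    rcases hx' with h' | h'
    · exact h'
    · exact absurd h' hc2
  · obtain ⟨a, c, d⟩ := k
    simp only at hc h
    have e1 : d = c * (d / c) := by field_simp
    have h1 : ∀ᶠ x in 𝓝 x₀, Mi F q a (d / c) x = 0 := by
      refine h.mono fun x hx' => ?_
      rw [e1, mg_smul] at hx'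
      rcases mul_eq_zero.1 hx' with h' | h'
      · exact absurd h' hc
      · exact h'
    have h2 : ∀ᶠ x in 𝓝 x₀, Complex.sin (a - F x) = 0 := by
      have h3 : ∀ᶠ x in 𝓝 x₀, ∀ᶠ y in 𝓝 x, Mi F q a (d / c) y = 0 := h1.eventually_nhds
      filter_upwards [h3, hev] with x h4 h5
      have h6 := hasDeriv_Mi hC a (d / c) h5
      have h7 : deriv (Mi F q a (d / c)) x = 0 := by
        have : Mi F q a (d / c) =ᶠ[𝓝 x] fun _ => (0 : ℂ) := h4
        rw [this.deriv_eq]; simp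
      rw [h6.deriv] at h7
      have h8 : Mi F q a (d / c) x = 0 := h4.self_of_nhds
      have h9 := hC.wr x h5
      have h10 : ((Λ : ℂ)) ^ 3 * Complex.sin (a - F x) = 0 := by
        rw [← h9]
        have e2 : deriv F x * (deriv (deriv F) x * (q x * Complex.cos (a - F x) - d / c) +
          deriv F x ^ 2 * q x * Complex.sin (a - F x) +
            deriv (deriv q) x * Complex.sin (a - F x)) -
          deriv (deriv F) x * Mi F q a (d / c) x = 0 := by rw [h7, h8]; ring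
        simp only [Mi] at e2
        linear_combination e2
      rcases mul_eq_zero.1 h10 with h' | h'
      · exact absurd h' (pow_ne_zero _ (by exact_mod_cast hC.Λ0.ne'))
      · exact h'
    refine F_ne hC hx ?_
    have h3 : ∀ᶠ x in 𝓝 x₀, ∀ᶠ y in 𝓝 x, Complex.sin (a - F y) = 0 := h2.eventually_nhds
    filter_upwards [h3, hev] with x h4 h5
    have h1' := d1 hC.dF h5
    have h5' : HasDerivAt (fun x => a - F x) (-deriv F x) x := h1'.const_sub a
    have h6 := h5'.csin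
    have h7 : deriv (fun y => Complex.sin (a - F y)) x = 0 := by
      have : (fun y => Complex.sin (a - F y)) =ᶠ[𝓝 x] fun _ => (0 : ℂ) := h4
      rw [this.deriv_eq]; simp
    rw [h6.deriv] at h7
    have h8 : Complex.sin (a - F x) = 0 := h4.self_of_nhds
    have h9 : Complex.cos (a - F x) ≠ 0 := by
      intro h'
      have := Complex.sin_sq_add_cos_sq (a - F x)
      rw [h8, h'] at this
      norm_num at this
    rcases mul_eq_zero.1 h7 with h' | h'
    · exact absurd h' h9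
    · exact neg_eq_zero.1 h'

/-- the incidence function of a line is not identically zero near any point of the strip -/
theorem mi_ne (hC : Cv Λ b F q) (a p : ℂ) {x₀ : ℂ} (hx : x₀ ∈ Sb b) :
    ¬ ∀ᶠ x in 𝓝 x₀, Mi F q a p x = 0 := by
  have := mg_ne hC (k := (a, 1, p)) (Or.inl one_ne_zero) hx
  intro h
  exact this (h.mono fun x hx' => by rw [mg_one]; exact hx')

/-- joint continuity -/
theorem cont_mg (hC : Cv Λ b F q) (k : ℂ × ℂ × ℂ) {x : ℂ} (hx : x ∈ Sb b) :
    ContinuousAt (fun z : (ℂ × ℂ × ℂ) × ℂ => mg F q z.1 z.2) (k, x) := by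
  have h1 : ContinuousAt F x := (d1 hC.dF hx).continuousAt
  have h2 : ContinuousAt q x := (d1 hC.dq hx).continuousAt
  have h3 : ContinuousAt (deriv F) x := (d1 (ddiff hC.dF) hx).continuousAt
  have h4 : ContinuousAt (deriv q) x := (d1 (ddiff hC.dq) hx).continuousAt
  have g1 : ContinuousAt (fun z : (ℂ × ℂ × ℂ) × ℂ => F z.2) (k, x) :=
    ContinuousAt.comp (x := (k, x)) (f := Prod.snd) h1 continuousAt_snd
  have g2 : ContinuousAt (fun z : (ℂ × ℂ × ℂ) × ℂ => q z.2) (k, x) :=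
    ContinuousAt.comp (x := (k, x)) (f := Prod.snd) h2 continuousAt_snd
  have g3 : ContinuousAt (fun z : (ℂ × ℂ × ℂ) × ℂ => deriv F z.2) (k, x) :=
    ContinuousAt.comp (x := (k, x)) (f := Prod.snd) h3 continuousAt_snd
  have g4 : ContinuousAt (fun z : (ℂ × ℂ × ℂ) × ℂ => deriv q z.2) (k, x) :=
    ContinuousAt.comp (x := (k, x)) (f := Prod.snd) h4 continuousAt_snd
  have g5 : ContinuousAt (fun z : (ℂ × ℂ × ℂ) × ℂ => z.1.1 - F z.2) (k, x) :=
    (continuous_fst.fst.continuousAt).sub g1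
  have g6 : ContinuousAt (fun z : (ℂ × ℂ × ℂ) × ℂ => Complex.cos (z.1.1 - F z.2)) (k, x) :=
    Complex.continuous_cos.continuousAt.comp g5
  have g7 : ContinuousAt (fun z : (ℂ × ℂ × ℂ) × ℂ => Complex.sin (z.1.1 - F z.2)) (k, x) :=
    Complex.continuous_sin.continuousAt.comp g5
  have g8 : ContinuousAt (fun z : (ℂ × ℂ × ℂ) × ℂ => z.1.2.1) (k, x) :=
    continuous_fst.snd.fst.continuousAt
  have g9 : ContinuousAt (fun z : (ℂ × ℂ × ℂ) × ℂ => z.1.2.2) (k, x) :=
    continuous_fst.snd.snd.continuousAt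
  exact (g3.mul ((g8.mul (g2.mul g6)).sub g9)).add (g8.mul (g4.mul g7))

/-- **circle lemma** : a small circle without zeros, with the same circle for all lines nearby -/
theorem circle (hC : Cv Λ b F q) {k : ℂ × ℂ × ℂ} (hk : k.2.1 ≠ 0 ∨ k.2.2 ≠ 0) {x₀ : ℂ}
    (hx : x₀ ∈ Sb b) {η : ℝ} (hη : 0 < η) : ∃ r, 0 < r ∧ r < η ∧ closedBall x₀ r ⊆ Sb b ∧
      ∀ᶠ k' in 𝓝 k, ∀ x ∈ sphere x₀ r, mg F q k' x ≠ 0 := by
  have han : AnalyticAt ℂ (mg F q k) x₀ :=
    (diff_mg hC k).analyticAt ((isOpen_Sb b).mem_nhds hx)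
  have h1 : ∀ᶠ x in 𝓝[≠] x₀, mg F q k x ≠ 0 := by
    rcases han.eventually_eq_zero_or_eventually_ne_zero with h | h
    · exact absurd h (mg_ne hC hk hx)
    · exact h
  have h2 : ∀ᶠ x in 𝓝 x₀, x ∈ Sb b := (isOpen_Sb b).mem_nhds hx
  rw [eventually_nhdsWithin_iff] at h1
  obtain ⟨ε, hε, h3⟩ := Metric.eventually_nhds_iff_ball.1 (h1.and h2)
  refine ⟨min ε η / 2, by positivity, ?_, ?_, ?_⟩
  · have := min_le_right ε η
    have h4 : 0 < min ε η := lt_min hε hη
    linarith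
  · intro x hx'
    refine (h3 x ?_).2
    rw [mem_closedBall] at hx'
    rw [mem_ball]
    have := min_le_left ε η
    have h4 : 0 < min ε η := lt_min hε hη
    linarith
  · have hsub : sphere x₀ (min ε η / 2) ⊆ Sb b := by
      intro x hx'
      refine (h3 x ?_).2
      rw [mem_sphere] at hx'
      rw [mem_ball]
      have := min_le_left ε η
      have h4 : 0 < min ε η := lt_min hε hη
      linarith
    refine IsCompact.eventually_forall_of_forall_eventually (isCompact_sphere _ _) ?_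
    intro x hx'
    have h5 : mg F q k x ≠ 0 := by
      have h4 : 0 < min ε η := lt_min hε hη
      rw [mem_sphere] at hx'
      refine (h3 x ?_).1 ?_
      · rw [mem_ball, hx']
        have := min_le_left ε η
        linarith
      · intro h'
        rw [mem_singleton_iff] at h'
        rw [h', dist_self] at hx'
        linarith
    exact (cont_mg hC k (hsub hx')).eventually_ne h5

/-- **row A5.ZONE** -/
theorem zone (hC : Cv Λ b F q) {K : Set ℂ} (hK : IsCompact K) (hKb : K ⊆ Sb b) (R : ℝ) {η : ℝ}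
    (hη : 0 < η) : ∃ ρ₀ > 0, ∀ {X : Type*} [TopologicalSpace X] {T : Set X} {a p x : X → ℂ}
      {z₀ : X}, IsPreconnected T → z₀ ∈ T → ContinuousOn x T → x z₀ ∈ K → |(a z₀).im| ≤ R →
      (∀ z ∈ T, ‖a z - a z₀‖ < ρ₀ ∧ ‖p z - p z₀‖ < ρ₀ ∧ x z ∈ Sb b ∧
        Mi F q (a z) (p z) (x z) = 0) → ∀ z ∈ T, ‖x z - x z₀‖ < η := by
  -- the compact set of parameters
  set PA : Set ℂ := (Icc 0 (2 * Real.pi)) ×ℂ (Icc (-R) R) with hPA
  set PC : Set (ℂ × ℂ) := {c | ‖c.1‖ + ‖c.2‖ = 1} with hPC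
  have cA : IsCompact PA := isCompact_Icc.reProdIm isCompact_Icc
  have cC : IsCompact PC := by
    refine Metric.isCompact_of_isClosed_isBounded ?_ ?_
    · exact isClosed_eq (continuous_fst.norm.add continuous_snd.norm) continuous_const
    · refine (isBounded_closedBall (x := (0 : ℂ × ℂ)) (r := 1)).subset ?_
      intro c hc
      simp only [hPC, mem_setOf_eq] at hc
      rw [mem_closedBall_zero_iff, Prod.norm_def]
      exact max_le (by linarith [norm_nonneg c.2]) (by linarith [norm_nonneg c.1])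
  set KK : Set ((ℂ × ℂ × ℂ) × ℂ) := (PA ×ˢ PC) ×ˢ K with hKK
  have cK : IsCompact KK := (cA.prod cC).prod hK
  set Good : ℝ → ((ℂ × ℂ × ℂ) × ℂ) → Prop := fun ρ κ => ∃ (x₁ : ℂ) (r : ℝ), 2 * r < η ∧
    κ.2 ∈ ball x₁ r ∧ ∀ k' : ℂ × ℂ × ℂ, dist k' κ.1 < ρ → ∀ x ∈ sphere x₁ r,
      mg F q k' x ≠ 0 with hGood
  have key : ∃ ρ > 0, ∀ κ ∈ KK, Good ρ κ := by
    refine cK.induction_on (p := fun s => ∃ ρ > 0, ∀ κ ∈ s, Good ρ κ) ?_ ?_ ?_ ?_
    · exact ⟨1, one_pos, fun κ hκ => absurd hκ (notMem_empty _)⟩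
    · rintro s t hst ⟨ρ, hρ, h⟩
      exact ⟨ρ, hρ, fun κ hκ => h κ (hst hκ)⟩
    · rintro s t ⟨ρ, hρ, h⟩ ⟨ρ', hρ', h'⟩
      refine ⟨min ρ ρ', lt_min hρ hρ', ?_⟩
      rintro κ (hκ | hκ)
      · obtain ⟨x₁, r, e1, e2, e3⟩ := h κ hκ
        exact ⟨x₁, r, e1, e2, fun k' hk' => e3 k' (hk'.trans_le (min_le_left _ _))⟩
      · obtain ⟨x₁, r, e1, e2, e3⟩ := h' κ hκ
        exact ⟨x₁, r, e1, e2, fun k' hk' => e3 k' (hk'.trans_le (min_le_right _ _))⟩
    · rintro ⟨k, x₀⟩ ⟨⟨hk1, hk2⟩, hx₀⟩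
      have hk : k.2.1 ≠ 0 ∨ k.2.2 ≠ 0 := by
        by_contra hcon
        push Not at hcon
        simp only [hPC, mem_setOf_eq] at hk2
        rw [hcon.1, hcon.2] at hk2
        norm_num at hk2
      obtain ⟨r, hr0, hr1, hr2, hr3⟩ := circle hC hk (hKb hx₀) (half_pos hη)
      obtain ⟨ε, hε, h5⟩ := Metric.eventually_nhds_iff_ball.1 hr3
      refine ⟨ball (k, x₀) (min (ε / 2) r), mem_nhdsWithin_of_mem_nhds
        (ball_mem_nhds _ (lt_min (half_pos hε) hr0)), ε / 2, half_pos hε, ?_⟩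
      rintro ⟨k', x'⟩ hκ
      rw [mem_ball, Prod.dist_eq, max_lt_iff] at hκ
      refine ⟨x₀, r, by linarith, ?_, ?_⟩
      · rw [mem_ball]
        exact hκ.2.trans_le (min_le_right _ _)
      · intro k'' hk'' x hx
        refine h5 k'' ?_ x hx
        rw [mem_ball]
        have h6 := dist_triangle k'' k' k
        have h7 := hκ.1.trans_le (min_le_left _ _)
        simp only at hk'' h7
        linarith
  obtain ⟨ρ, hρ, hgood⟩ := key
  refine ⟨ρ, hρ, ?_⟩
  intro X _ T a p x z₀ hT hz₀ hxc hxK haR hall z hz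
  -- normalisation of the initial line
  set N : ℝ := 1 + ‖p z₀‖ with hN
  have hN1 : 1 ≤ N := by rw [hN]; linarith [norm_nonneg (p z₀)]
  have hN0 : 0 < N := by linarith
  have hNc : (N : ℂ) ≠ 0 := by exact_mod_cast hN0.ne'
  obtain ⟨n, hn⟩ : ∃ n : ℤ, (a z₀).re - n * (2 * Real.pi) ∈ Ico 0 (2 * Real.pi) := by
    have h2π : 0 < 2 * Real.pi := by positivity
    refine ⟨⌊(a z₀).re / (2 * Real.pi)⌋, ?_, ?_⟩
    · have := Int.floor_le ((a z₀).re / (2 * Real.pi))
      rw [le_div_iff₀ h2π] at this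
      linarith
    · have := Int.lt_floor_add_one ((a z₀).re / (2 * Real.pi))
      rw [div_lt_iff₀ h2π] at this
      linarith
  have hper : ∀ (a' p' y : ℂ), mg F q (a' - n * (2 * Real.pi), (N : ℂ)⁻¹, (N : ℂ)⁻¹ * p') y =
      (N : ℂ)⁻¹ * Mi F q a' p' y := by
    intro a' p' y
    rw [mg_smul]
    have e1 : a' - n * (2 * Real.pi) - F y = (a' - F y) - n * (2 * Real.pi) := by ring
    simp only [Mi, e1, Complex.cos_sub_int_mul_two_pi, Complex.sin_sub_int_mul_two_pi]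
  set κ : (ℂ × ℂ × ℂ) × ℂ :=
    ((a z₀ - n * (2 * Real.pi), (N : ℂ)⁻¹, (N : ℂ)⁻¹ * p z₀), x z₀) with hκ
  have hκK : κ ∈ KK := by
    refine ⟨⟨?_, ?_⟩, hxK⟩
    · rw [hPA, Complex.mem_reProdIm]
      have e2 : (a z₀ - n * (2 * Real.pi) : ℂ).re = (a z₀).re - n * (2 * Real.pi) := by
        simp
      have e3 : (a z₀ - n * (2 * Real.pi) : ℂ).im = (a z₀).im := by
        simp
      constructor
      · show (a z₀ - n * (2 * Real.pi) : ℂ).re ∈ _
        rw [e2]; exact ⟨hn.1, hn.2.le⟩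
      · show (a z₀ - n * (2 * Real.pi) : ℂ).im ∈ _
        rw [e3]; exact abs_le.1 haR
    · show ‖(N : ℂ)⁻¹‖ + ‖(N : ℂ)⁻¹ * p z₀‖ = 1
      rw [norm_mul, norm_inv, Complex.norm_real, Real.norm_of_nonneg hN0.le]
      field_simp
      exact hN.symm
  obtain ⟨x₁, r, h1, h2, h3⟩ := hgood κ hκK
  have h4 : x '' T ⊆ ball x₁ r := by
    have hpre : IsPreconnected (x '' T) := hT.image x hxc
    refine hpre.subset_left_of_subset_union isOpen_ball isClosed_closedBall.isOpen_compl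
      (v := (closedBall x₁ r)ᶜ) ?_ ?_ ⟨x z₀, mem_image_of_mem x hz₀, h2⟩
    · exact (disjoint_compl_right (a := closedBall x₁ r)).mono_left ball_subset_closedBall
    · rintro y ⟨z', hz', rfl⟩
      by_contra hcon
      rw [mem_union, not_or] at hcon
      have h5 : x z' ∈ sphere x₁ r := by
        have e1 : r ≤ dist (x z') x₁ := not_lt.1 hcon.1
        have e2 : dist (x z') x₁ ≤ r := by
          have := hcon.2
          rw [mem_compl_iff, not_not] at this
          exact this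
        exact le_antisymm e2 e1
      obtain ⟨b1, b2, b3, b4⟩ := hall z' hz'
      refine h3 (a z' - n * (2 * Real.pi), (N : ℂ)⁻¹, (N : ℂ)⁻¹ * p z') ?_ (x z') h5 ?_
      · rw [Prod.dist_eq, Prod.dist_eq]
        refine max_lt ?_ (max_lt ?_ ?_)
        · show dist (a z' - n * (2 * Real.pi)) (a z₀ - n * (2 * Real.pi)) < ρ
          rw [dist_sub_right, dist_eq_norm]; exact b1
        · show dist ((N : ℂ)⁻¹) ((N : ℂ)⁻¹) < ρ
          rw [dist_self]; exact hρ
        · show dist ((N : ℂ)⁻¹ * p z') ((N : ℂ)⁻¹ * p z₀) < ρ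
          rw [dist_eq_norm, ← mul_sub, norm_mul, norm_inv, Complex.norm_real,
            Real.norm_of_nonneg hN0.le]
          calc N⁻¹ * ‖p z' - p z₀‖ ≤ 1 * ‖p z' - p z₀‖ :=
                mul_le_mul_of_nonneg_right (inv_le_one_of_one_le₀ hN1) (norm_nonneg _)
            _ < ρ := by rw [one_mul]; exact b2
      · rw [hper, b4, mul_zero]
  have h5 := h4 (mem_image_of_mem x hz)
  rw [mem_ball, dist_eq_norm] at h5 h2
  calc ‖x z - x z₀‖ = ‖(x z - x₁) - (x z₀ - x₁)‖ := by ring_nf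
    _ ≤ ‖x z - x₁‖ + ‖x z₀ - x₁‖ := norm_sub_le _ _
    _ < r + r := add_lt_add h5 h2
    _ < η := by linarith

end Vale.Agent.P097.H394
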